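import Mathlib

/-!
Telescoping over an alphabet: the generating products `PHI` and `FF`.
-/

namespace Vale.Agent.Lib.P066.K3

open Polynomial Finset

noncomputable section

variable {R : Type*} [CommRing R]

/-- The factor `q` when `c < y`, otherwise `1`. -/
def qlt (q : R) (c y : ℕ) : R := if c < y then q else 1

/-- The product over the alphabet `T` where the letters below `y` get the extra factor `q`. -/
def PHI (q : R) (T : Finset ℕ) (w : ℕ → R) (y : ℕ) : R[X] :=
  ∏ c ∈ T, (1 + C (qlt q c y * w c) * X)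

/-- The same product with the letter `a` removed, where the letters below `a` get the factor
`q`. -/
def FF (q : R) (T : Finset ℕ) (w : ℕ → R) (a : ℕ) : R[X] :=
  ∏ c ∈ T.erase a, (1 + C (qlt q c a * w c) * X)

/-- The coefficients of `PHI`. -/
def phi (q : R) (T : Finset ℕ) (w : ℕ → R) (m y : ℕ) : R := (PHI q T w y).coeff m

/-- The coefficients of `FF`. -/
def ff (q : R) (T : Finset ℕ) (w : ℕ → R) (m a : ℕ) : R := (FF q T w a).coeff m

/-- The coefficients of the product of all `1 + w c t` over `T`. -/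
def ee (T : Finset ℕ) (w : ℕ → R) (m : ℕ) : R := (∏ c ∈ T, (1 + C (w c) * X)).coeff m

theorem coeff_one_add_mul_zero (r : R) (P : R[X]) : ((1 + C r * X) * P).coeff 0 = P.coeff 0 := by
  simp [add_mul, mul_assoc, Polynomial.mul_coeff_zero]

theorem coeff_one_add_mul_succ (r : R) (P : R[X]) (m : ℕ) :
    ((1 + C r * X) * P).coeff (m + 1) = P.coeff (m + 1) + r * P.coeff m := by
  rw [add_mul, one_mul, coeff_add, mul_assoc, coeff_C_mul, coeff_X_mul]

theorem prod_coeff_zero (T : Finset ℕ) (a : ℕ → R) :
    (∏ c ∈ T, (1 + C (a c) * X)).coeff 0 = 1 := by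
  classical
  induction T using Finset.induction_on with
  | empty => simp
  | insert b T hb ih => rw [Finset.prod_insert hb, coeff_one_add_mul_zero, ih]

theorem prod_scale_coeff (q : R) (T : Finset ℕ) (a : ℕ → R) (m : ℕ) :
    (∏ c ∈ T, (1 + C (q * a c) * X)).coeff m = q ^ m * (∏ c ∈ T, (1 + C (a c) * X)).coeff m := by
  classical
  induction T using Finset.induction_on generalizing m with
  | empty =>
    cases m with
    | zero => simp
    | succ m => simp [Polynomial.coeff_one]
  | insert b T hb ih =>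
    rw [Finset.prod_insert hb, Finset.prod_insert hb]
    cases m with
    | zero =>
      rw [coeff_one_add_mul_zero, coeff_one_add_mul_zero, prod_coeff_zero, prod_coeff_zero]
      simp
    | succ m =>
      rw [coeff_one_add_mul_succ, coeff_one_add_mul_succ, ih, ih]
      ring

variable (q : R) (T : Finset ℕ) (w : ℕ → R)

theorem ff_zero (a : ℕ) : ff q T w 0 a = 1 := prod_coeff_zero _ _

theorem PHI_self {a : ℕ} (ha : a ∈ T) : PHI q T w a = (1 + C (w a) * X) * FF q T w a := by
  unfold PHI FF
  rw [← Finset.mul_prod_erase T _ ha]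
  simp [qlt]

theorem PHI_succ {a : ℕ} (ha : a ∈ T) :
    PHI q T w (a + 1) = (1 + C (q * w a) * X) * FF q T w a := by
  unfold PHI FF
  rw [← Finset.mul_prod_erase T _ ha]
  congr 1
  · simp [qlt]
  · refine Finset.prod_congr rfl fun c hc => ?_
    have h1 : c ≠ a := (Finset.mem_erase.mp hc).1
    have h2 : (c < a + 1) ↔ c < a := by omega
    simp [qlt, h2]

theorem PHI_succ_of_not_mem {a : ℕ} (ha : a ∉ T) : PHI q T w (a + 1) = PHI q T w a := by
  unfold PHI
  refine Finset.prod_congr rfl fun c hc => ?_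
  have h1 : c ≠ a := fun h => ha (h ▸ hc)
  have h2 : (c < a + 1) ↔ c < a := by omega
  simp [qlt, h2]

theorem phi_self {a : ℕ} (ha : a ∈ T) (m : ℕ) :
    phi q T w (m + 1) a = ff q T w (m + 1) a + w a * ff q T w m a := by
  unfold phi ff
  rw [PHI_self q T w ha, coeff_one_add_mul_succ]

theorem phi_succ {a : ℕ} (ha : a ∈ T) (m : ℕ) :
    phi q T w (m + 1) (a + 1) = ff q T w (m + 1) a + q * w a * ff q T w m a := by
  unfold phi ff
  rw [PHI_succ q T w ha, coeff_one_add_mul_succ]

theorem phi_zero (m : ℕ) : phi q T w m 0 = ee T w m := by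
  unfold phi PHI ee
  simp [qlt]

theorem phi_top {N : ℕ} (hT : T ⊆ Finset.range N) (m : ℕ) :
    phi q T w m N = q ^ m * ee T w m := by
  unfold phi PHI ee
  rw [← prod_scale_coeff]
  congr 1
  refine Finset.prod_congr rfl fun c hc => ?_
  have := Finset.mem_range.mp (hT hc)
  simp [qlt, this]

/-- The summand used in the telescoping sums. -/
def gg' (m a : ℕ) : R := if a ∈ T then w a * ff q T w m a else 0

theorem tel_step (m a : ℕ) :
    (q - 1) * gg' q T w m a = phi q T w (m + 1) (a + 1) - phi q T w (m + 1) a := by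
  unfold gg'
  by_cases ha : a ∈ T
  · rw [if_pos ha, phi_self q T w ha, phi_succ q T w ha]
    ring
  · rw [if_neg ha]
    unfold phi
    rw [PHI_succ_of_not_mem q T w ha]
    ring

theorem tel_Ico (m : ℕ) {u v : ℕ} (huv : u ≤ v) :
    (q - 1) * ∑ a ∈ Finset.Ico u v, gg' q T w m a =
      phi q T w (m + 1) v - phi q T w (m + 1) u := by
  induction v, huv using Nat.le_induction with
  | base => simp
  | succ v huv ih =>
    rw [Finset.sum_Ico_succ_top huv, mul_add, ih, tel_step]
    ring

theorem sum_eq_Ico {N : ℕ} (hT : T ⊆ Finset.range N) (F : ℕ → R) :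
    ∑ a ∈ T, F a = ∑ a ∈ Finset.Ico 0 N, if a ∈ T then F a else 0 := by
  rw [← Finset.range_eq_Ico, Finset.sum_ite_mem]
  congr 1
  exact (Finset.inter_eq_right.mpr hT).symm

/-- Summing over the whole alphabet. -/
theorem tel_all {N : ℕ} (hT : T ⊆ Finset.range N) (m : ℕ) :
    (q - 1) * ∑ a ∈ T, w a * ff q T w m a = (q ^ (m + 1) - 1) * ee T w (m + 1) := by
  rw [sum_eq_Ico T hT]
  have h := tel_Ico q T w m (Nat.zero_le N)
  unfold gg' at h
  rw [h, phi_top q T w hT, phi_zero]
  ring

/-- Summing over the alphabet without one marked letter `c`, where the letters below `c` get the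
factor `q`. -/
theorem tel_mark {N : ℕ} (hT : T ⊆ Finset.range N) {c : ℕ} (hc : c ∈ T) (m : ℕ) :
    (q - 1) * ∑ a ∈ T.erase c, qlt q a c * (w a * ff q T w m a) =
      (q - 1) * ff q T w (m + 1) c + (q ^ (m + 1) - q) * ee T w (m + 1) := by
  have hcN : c < N := Finset.mem_range.mp (hT hc)
  have h1 : ∑ a ∈ T.erase c, qlt q a c * (w a * ff q T w m a) =
      ∑ a ∈ Finset.Ico 0 N, if a ∈ T.erase c then qlt q a c * (w a * ff q T w m a) else 0 :=
    sum_eq_Ico _ ((Finset.erase_subset _ _).trans hT) _
  have h2 : ∑ a ∈ Finset.Ico 0 N, (if a ∈ T.erase c then qlt q a c * (w a * ff q T w m a) else 0) =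
      ∑ a ∈ Finset.Ico 0 c, (if a ∈ T.erase c then qlt q a c * (w a * ff q T w m a) else 0) +
      ((if c ∈ T.erase c then qlt q c c * (w c * ff q T w m c) else 0) +
      ∑ a ∈ Finset.Ico (c + 1) N,
        if a ∈ T.erase c then qlt q a c * (w a * ff q T w m a) else 0) := by
    rw [← Finset.sum_Ico_consecutive _ (Nat.zero_le c) hcN.le,
      Finset.sum_eq_sum_Ico_succ_bot hcN]
  have h3 : ∑ a ∈ Finset.Ico 0 c, (if a ∈ T.erase c then qlt q a c * (w a * ff q T w m a) else 0) =
      q * ∑ a ∈ Finset.Ico 0 c, gg' q T w m a := by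
    rw [Finset.mul_sum]
    refine Finset.sum_congr rfl fun a ha => ?_
    have hac : a < c := (Finset.mem_Ico.mp ha).2
    have hne : a ≠ c := by omega
    simp only [Finset.mem_erase, hne, ne_eq, not_false_eq_true, true_and, gg', qlt, hac, if_true]
    split_ifs <;> simp
  have h4 : ∑ a ∈ Finset.Ico (c + 1) N,
      (if a ∈ T.erase c then qlt q a c * (w a * ff q T w m a) else 0) =
      ∑ a ∈ Finset.Ico (c + 1) N, gg' q T w m a := by
    refine Finset.sum_congr rfl fun a ha => ?_
    have hac : c + 1 ≤ a := (Finset.mem_Ico.mp ha).1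
    have hne : a ≠ c := by omega
    have hnl : ¬ a < c := by omega
    simp only [Finset.mem_erase, hne, ne_eq, not_false_eq_true, true_and, gg', qlt, hnl, if_false,
      one_mul]
  rw [h1, h2, h3, h4]
  simp only [Finset.mem_erase, ne_eq, not_true_eq_false, false_and, if_false, zero_add]
  have h5 := tel_Ico q T w m (Nat.zero_le c)
  have h6 := tel_Ico q T w m (show c + 1 ≤ N by omega)
  rw [phi_zero] at h5
  rw [phi_top q T w hT, phi_succ q T w hc] at h6
  rw [phi_self q T w hc] at h5
  linear_combination q * h5 + h6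

end

end Vale.Agent.Lib.P066.K3
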