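import Vale.Agent.Lib.P066.K3.Stable
import Vale.Agent.Lib.P066.Extract

/-!
The instance: polynomials over `ℤ[q]`.
-/

namespace Vale.Agent.Lib.P066.K3

open Polynomial Vale.Agent.Lib.P066

noncomputable section

variable (N : ℕ)

/-- The parameter `q`. -/
def qR : MvPolynomial (Fin N) ℤ[X] := MvPolynomial.C X

/-- The variables, all zero from `N` on. -/
def xR (c : ℕ) : MvPolynomial (Fin N) ℤ[X] := if h : c < N then MvPolynomial.X ⟨c, h⟩ else 0

/-- The data of the instance. -/
def ctx : Ctx (MvPolynomial (Fin N) ℤ[X]) := ⟨N, qR N, xR N⟩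

/-- The map from polynomials over `ℕ[q]` in formal variables to polynomials in the elementary
symmetric polynomials. -/
def phiHom : MvPolynomial (Fin N) ℕ[X] →+* MvPolynomial (Fin N) ℤ[X] :=
  ((MvPolynomial.aeval (ees N) : MvPolynomial (Fin N) ℤ[X] →ₐ[ℤ[X]] MvPolynomial (Fin N) ℤ[X]) :
    MvPolynomial (Fin N) ℤ[X] →+* MvPolynomial (Fin N) ℤ[X]).comp (MvPolynomial.map natInt)

/-- The image of `phiHom`. -/
def SS : Subsemiring (MvPolynomial (Fin N) ℤ[X]) := (phiHom N).rangeS

theorem phiHom_apply (p : MvPolynomial (Fin N) ℕ[X]) :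
    phiHom N p = MvPolynomial.aeval (ees N) (MvPolynomial.map natInt p) := rfl

theorem qR_mem : qR N ∈ SS N := by
  refine ⟨MvPolynomial.C X, ?_⟩
  rw [phiHom_apply, MvPolynomial.map_C, MvPolynomial.aeval_C]
  simp [qR]

theorem qR_ne_one : qR N ≠ 1 := by
  intro h
  have h2 : (MvPolynomial.C (X : ℤ[X]) : MvPolynomial (Fin N) ℤ[X]) = MvPolynomial.C 1 := by
    rw [MvPolynomial.C_1]
    exact h
  have h3 := MvPolynomial.C_injective (Fin N) ℤ[X] h2
  have h4 := congrArg (fun p : ℤ[X] => p.coeff 1) h3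
  simp [Polynomial.coeff_one] at h4

theorem esymm_mem (m : ℕ) : MvPolynomial.esymm (Fin N) ℤ[X] m ∈ SS N := by
  rcases Nat.eq_zero_or_pos m with rfl | hm
  · rw [show MvPolynomial.esymm (Fin N) ℤ[X] 0 = 1 by simp [MvPolynomial.esymm]]
    exact (SS N).one_mem
  · by_cases h : m ≤ N
    · refine ⟨MvPolynomial.X ⟨m - 1, by omega⟩, ?_⟩
      rw [phiHom_apply, MvPolynomial.map_X, MvPolynomial.aeval_X]
      simp only [ees]
      congr 1
      omega
    · rw [show MvPolynomial.esymm (Fin N) ℤ[X] m = 0 by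
        simp only [MvPolynomial.esymm]
        rw [Finset.powersetCard_eq_empty.mpr (by simpa using h)]
        simp]
      exact (SS N).zero_mem

theorem prod_coeff_eq_esymm (m : ℕ) :
    (∏ i : Fin N, (1 + C (MvPolynomial.X i : MvPolynomial (Fin N) ℤ[X]) * X)).coeff m =
      MvPolynomial.esymm (Fin N) ℤ[X] m := by
  classical
  rw [Finset.prod_one_add]
  have h1 : ∀ t : Finset (Fin N),
      ∏ i ∈ t, (C (MvPolynomial.X i : MvPolynomial (Fin N) ℤ[X]) * X) =
        C (∏ i ∈ t, (MvPolynomial.X i : MvPolynomial (Fin N) ℤ[X])) * X ^ t.card := by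
    intro t
    rw [Finset.prod_mul_distrib, Finset.prod_const, map_prod]
  simp only [h1, finsetSum_coeff, coeff_C_mul_X_pow]
  rw [MvPolynomial.esymm, Finset.powersetCard_eq_filter, Finset.sum_filter]
  refine Finset.sum_congr rfl fun t _ => ?_
  by_cases h : m = t.card
  · simp [h]
  · have h' : ¬ t.card = m := fun h2 => h h2.symm
    simp [h, h']

theorem ctx_e (m : ℕ) : (ctx N).e m = MvPolynomial.esymm (Fin N) ℤ[X] m := by
  rw [← prod_coeff_eq_esymm]
  simp only [Ctx.e, ee, ctx]
  rw [← Fin.prod_univ_eq_prod_range (fun c => 1 + C (xR N c) * X) N]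
  have h : ∀ i : Fin N, xR N i.val = MvPolynomial.X i := fun i => by
    simp [xR]
  simp only [h]

theorem ctx_stable : GStable N 3 (qR N) (xR N) (SS N) ((ctx N).CC (SS N)) :=
  Ctx.stable (ctx N) (qR_mem N) (fun m => by rw [ctx_e]; exact esymm_mem N m) (qR_ne_one N)

theorem map_lsum (t : ℕ) (F : List ℕ → AA N) :
    MvPolynomial.map natInt (Vale.Agent.Lib.P066.lsum N t F) =
      K3.lsum N t (fun l => MvPolynomial.map natInt (F l)) := by
  induction t generalizing F with
  | zero => rfl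
  | succ t ih =>
    simp only [Vale.Agent.Lib.P066.lsum, K3.lsum]
    rw [ih]
    congr 1
    funext l
    rw [map_sum]

theorem map_wt (back : ℕ → ℕ) (l : List ℕ) :
    MvPolynomial.map natInt (Vale.Agent.Lib.P066.wt N back l) =
      K3.wt (qR N) (xR N) back l := by
  induction l with
  | nil => simp [Vale.Agent.Lib.P066.wt, K3.wt]
  | cons c l ih =>
    simp only [Vale.Agent.Lib.P066.wt, K3.wt, map_mul, ih]
    congr 1
    split_ifs with h
    · simp
    · have h1 : MvPolynomial.map natInt (qq N) = qR N := by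
        simp [qq, qR]
      have h2 : MvPolynomial.map natInt (xv N c) = xR N c := by
        unfold xv xR
        split_ifs <;> simp
      rw [map_mul, map_pow, h1, h2]

theorem chi_eq_lsum {n : ℕ} (G : Hess n) :
    G.chi N = K3.lsum N n (K3.wt (qR N) (xR N) G.back) := by
  rw [← map_chiN, chiN_eq, map_lsum]
  congr 1
  funext l
  exact map_wt N G.back l

theorem back_lt {n : ℕ} (G : Hess n) (hG : ∀ i, (G.h i).val ≤ i.val + 2) (t : ℕ) :
    G.back t < 3 := by
  have h1 : t ≤ G.hh (G.ss t) := (G.ss_le_iff t (G.ss t)).mp le_rfl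
  have h2 : G.hh (G.ss t) ≤ G.ss t + 2 := by
    unfold Hess.hh
    split_ifs with h
    · exact hG _
    · omega
  unfold Hess.back
  omega

/-- The theorem for graphs with no four pairwise adjacent vertices. -/
theorem chi_mem {n : ℕ} (G : Hess n) (hG : ∀ i, (G.h i).val ≤ i.val + 2) : G.chi N ∈ SS N := by
  rw [chi_eq_lsum]
  exact sum_mem_of_stable (qR N) (xR N) G.back_zero G.back_succ (back_lt G hG) (ctx_stable N) n

theorem main_poly {n : ℕ} (G : Hess n) (hG : ∀ i, (G.h i).val ≤ i.val + 2) :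
    ∃ p : MvPolynomial (Fin N) ℕ[X], G.chi N = MvPolynomial.aeval (ees N)
      (MvPolynomial.map natInt p) := by
  obtain ⟨p, hp⟩ := chi_mem N G hG
  exact ⟨p, hp.symm⟩

theorem main_coeff {n : ℕ} (G : Hess n) (hG : ∀ i, (G.h i).val ≤ i.val + 2)
    (c : n.Partition → ℤ[X])
    (hc : G.chi n = ∑ l, MvPolynomial.C (c l) * MvPolynomial.esymmPart (Fin n) ℤ[X] l)
    (l : n.Partition) (i : ℕ) : 0 ≤ (c l).coeff i := by
  obtain ⟨p, hp⟩ := main_poly n G hG
  refine coeff_nonneg_of n p c (G.chi n) hp hc l ?_ i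
  intro k hk
  have h1 := Multiset.single_le_sum (fun _ _ => Nat.zero_le _) k hk
  rw [l.parts_sum] at h1
  exact h1

end

end Vale.Agent.Lib.P066.K3
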