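import Vale.Agent.Lib.P066.Cone

/-!
The weighted sum over colourings of a natural unit interval graph, read vertex by vertex, stays in
any stable cone.
-/

namespace Vale.Agent.Lib.P066.K3

open Vale.Agent.Lib.P066

noncomputable section

variable {R : Type*} [CommRing R]

variable (N : ℕ)

/-- The sum of `F` over all lists of length `t` with entries below `N`. -/
def lsum : ℕ → (List ℕ → R) → R
  | 0, F => F []
  | t + 1, F => lsum t fun l => ∑ c ∈ Finset.range N, F (c :: l)

variable {N}

theorem lsum_congr {t : ℕ} {F G : List ℕ → R}
    (h : ∀ l, l.length = t → (∀ c ∈ l, c < N) → F l = G l) : lsum N t F = lsum N t G := by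
  induction t generalizing F G with
  | zero => exact h [] rfl (by simp)
  | succ t ih =>
    refine ih fun l hl hl' => Finset.sum_congr rfl fun c hc => h _ (by simp [hl]) ?_
    intro d hd
    rcases List.mem_cons.mp hd with rfl | hd
    · exact Finset.mem_range.mp hc
    · exact hl' d hd

theorem lsum_zero (t : ℕ) : lsum N t (fun _ => (0 : R)) = 0 := by
  induction t with
  | zero => rfl
  | succ t ih =>
    simp only [lsum, Finset.sum_const_zero]
    exact ih

theorem lsum_add (t : ℕ) (F G : List ℕ → R) :
    lsum N t (fun l => F l + G l) = lsum N t F + lsum N t G := by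
  induction t generalizing F G with
  | zero => rfl
  | succ t ih =>
    simp only [lsum, Finset.sum_add_distrib]
    exact ih _ _

theorem lsum_mul (t : ℕ) (a : R) (F : List ℕ → R) :
    lsum N t (fun l => a * F l) = a * lsum N t F := by
  induction t generalizing F with
  | zero => rfl
  | succ t ih =>
    simp only [lsum, ← Finset.mul_sum]
    exact ih _

theorem lsum_sum (t : ℕ) (s : Finset ℕ) (F : ℕ → List ℕ → R) :
    lsum N t (fun l => ∑ c ∈ s, F c l) = ∑ c ∈ s, lsum N t (F c) := by
  classical
  induction s using Finset.induction_on with
  | empty => simpa using lsum_zero t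
  | insert a s ha ih =>
    simp only [Finset.sum_insert ha]
    rw [lsum_add, ih]

variable (N)

variable (q : R) (x : ℕ → R)

/-- The weight of a list of colours (newest first): `back t` is the number of earlier neighbours
of vertex `t`. -/
def wt (back : ℕ → ℕ) : List ℕ → R
  | [] => 1
  | c :: l =>
    (if memB c (l.take (back l.length)) then 0
      else q ^ cntLt c (l.take (back l.length)) * x c) * wt back l

/-- The number of vertices at the end of the list that are known to be pairwise adjacent. -/
def win (back : ℕ → ℕ) : ℕ → ℕ
  | 0 => 0
  | t + 1 => back t + 1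

/-- The sum of the weights of lists of length `t` that begin with `l0`, where `l0` has length
`k`. -/
def Z (back : ℕ → ℕ) (t k : ℕ) (l0 : List ℕ) : R :=
  lsum N t fun l => if l.take k = l0 then wt q x back l else 0

variable {N}

section
variable {back : ℕ → ℕ} (hb0 : back 0 = 0) (hb : ∀ t, back (t + 1) ≤ back t + 1)
include hb0 hb

theorem back_le_win (t : ℕ) : back t ≤ win back t := by
  cases t with
  | zero => simp [hb0, win]
  | succ t => exact hb t

theorem win_le (t : ℕ) : win back t ≤ t := by
  induction t with
  | zero => simp [win]
  | succ t ih =>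
    have := back_le_win hb0 hb t
    simp only [win]
    omega

theorem wt_nodup (l : List ℕ) (h : wt q x back l ≠ 0) : (l.take (win back l.length)).Nodup := by
  induction l with
  | nil => simp
  | cons c l ih =>
    simp only [wt] at h
    have h1 : memB c (l.take (back l.length)) = false := by
      by_contra h2
      simp only [Bool.not_eq_false] at h2
      simp [h2] at h
    have h2 : wt q x back l ≠ 0 := fun h3 => h (by rw [h3, mul_zero])
    have h3 := ih h2
    simp only [List.length_cons, win, List.take_succ_cons]
    rw [List.nodup_cons]
    constructor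
    · intro h4
      rw [← memB_iff] at h4
      simp [h1] at h4
    · exact (List.take_sublist_take_left (back_le_win hb0 hb l.length)).nodup h3

theorem Z_of_not_nodup {t k : ℕ} (hk : k ≤ win back t) {l0 : List ℕ} (h0 : ¬ l0.Nodup) :
    Z N q x back t k l0 = 0 := by
  unfold Z
  refine Eq.trans (lsum_congr fun l hl _ => ?_) (lsum_zero t)
  split_ifs with h1
  · by_contra h2
    apply h0
    rw [← h1]
    have h3 := wt_nodup q x hb0 hb l h2
    rw [hl] at h3
    exact (List.take_sublist_take_left hk).nodup h3
  · rfl

end

theorem Z_step_N (back : ℕ → ℕ) (t : ℕ) {c : ℕ} (hc : c < N) (l0 : List ℕ) :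
    Z N q x back (t + 1) (back t + 1) (c :: l0) =
      (if memB c l0 then 0 else q ^ cntLt c l0 * x c) * Z N q x back t (back t) l0 := by
  unfold Z
  simp only [lsum]
  rw [← lsum_mul]
  refine lsum_congr fun l hl _ => ?_
  simp only [List.take_succ_cons, List.cons.injEq]
  by_cases h1 : l.take (back t) = l0
  · have hsum : ∑ d ∈ Finset.range N,
        (if d = c ∧ l.take (back t) = l0 then wt q x back (d :: l) else 0) = wt q x back (c :: l) := by
      simp only [h1, and_true]
      rw [Finset.sum_ite_eq']
      simp [hc]
    rw [hsum, if_pos h1]
    simp only [wt, hl, h1]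
  · simp [h1]

theorem Z_step_E (back : ℕ → ℕ) {t k : ℕ} (hk : k < t) {l0 : List ℕ} (h0 : l0.length = k) :
    Z N q x back t k l0 = ∑ c ∈ Finset.range N, Z N q x back t (k + 1) (l0 ++ [c]) := by
  unfold Z
  rw [← lsum_sum]
  refine lsum_congr fun l hl hl' => ?_
  have hk' : k < l.length := by omega
  have htake : l.take (k + 1) = l.take k ++ [l[k]] := by
    rw [List.take_add_one]
    simp [hk']
  have hlen : (l.take k).length = l0.length := by
    simp [h0, hk'.le]
  have hiff : ∀ c, (l.take (k + 1) = l0 ++ [c]) ↔ (c = l[k] ∧ l.take k = l0) := by
    intro c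
    rw [htake]
    constructor
    · intro h
      have := List.append_inj h hlen
      refine ⟨?_, this.1⟩
      have h2 := this.2
      simpa [eq_comm] using h2
    · rintro ⟨rfl, h⟩
      rw [h]
  simp only [hiff]
  by_cases h1 : l.take k = l0
  · simp only [h1, and_true, if_true]
    rw [Finset.sum_ite_eq']
    have : l[k] < N := hl' _ (List.getElem_mem _)
    simp [this]
  · simp [h1]


/-- A family of conditions on state vectors that is stable under the two operations. -/
structure GStable (N K : ℕ) (q : R) (x : ℕ → R) (S : Subsemiring R)
    (C : ℕ → (List ℕ → R) → Prop) : Prop where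
  congr : ∀ {k : ℕ} {u w : List ℕ → R}, C k u → (∀ l, Good N k l → u l = w l) → C k w
  start : C 0 fun _ => 1
  stepN : ∀ k, k < K → ∀ u, C k u →
    C (k + 1) fun l => match l with
      | [] => 0
      | c :: rest => q ^ cntLt c rest * x c * u rest
  stepE : ∀ k, k < K → ∀ u, C (k + 1) u →
    C k fun l => ∑ c ∈ (Finset.range N).filter (fun c => c ∉ l), u (l ++ [c])
  final : ∀ u, C 0 u → u [] ∈ S

theorem sum_filter_free (l : List ℕ) (G : ℕ → R) (h : ∀ c, c ∈ l → G c = 0) :
    ∑ c ∈ (Finset.range N).filter (fun c => c ∉ l), G c = ∑ c ∈ Finset.range N, G c := by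
  classical
  rw [Finset.sum_filter]
  refine Finset.sum_congr rfl fun c _ => ?_
  by_cases hc : c ∈ l
  · simp [hc, h c hc]
  · simp [hc]

section
variable {K : ℕ} {S : Subsemiring R} {C : ℕ → (List ℕ → R) → Prop}
variable {back : ℕ → ℕ} (hb0 : back 0 = 0) (hb : ∀ t, back (t + 1) ≤ back t + 1)
variable (hK : ∀ t, back t < K) (hS : GStable N K q x S C)
include hb0 hb hK hS

theorem win_le_K (t : ℕ) : win back t ≤ K := by
  cases t with
  | zero => simp [win]
  | succ t =>
    have := hK t
    simp only [win]
    omega

theorem cone_down {t : ℕ} (h : C (win back t) (Z N q x back t (win back t)))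
    (d j : ℕ) (hj : j + d = win back t) : C j (Z N q x back t j) := by
  induction d generalizing j with
  | zero =>
    have : j = win back t := by omega
    rw [this]
    exact h
  | succ d ih =>
    have h1 := ih (j + 1) (by omega)
    have hjK : j < K := by
      have := win_le_K q x hb0 hb hK hS t
      omega
    refine hS.congr (hS.stepE j hjK _ h1) fun l hl => ?_
    have hwin := win_le hb0 hb t
    rw [Z_step_E q x back (by omega) hl.1]
    rw [sum_filter_free]
    intro c hc
    apply Z_of_not_nodup q x hb0 hb (by omega)
    intro hnd
    have := (List.nodup_append.mp hnd).2.2 c hc c (by simp)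
    exact this rfl

theorem cone_main (t : ℕ) : C (win back t) (Z N q x back t (win back t)) := by
  induction t with
  | zero =>
    refine hS.congr hS.start fun l hl => ?_
    have hl0 : l = [] := List.length_eq_zero_iff.mp hl.1
    subst hl0
    simp [Z, lsum, wt, win]
  | succ t ih =>
    have hle := back_le_win hb0 hb t
    have h2 := cone_down q x hb0 hb hK hS ih (win back t - back t) (back t) (by omega)
    refine hS.congr (hS.stepN (back t) (hK t) _ h2) fun l hl => ?_
    cases l with
    | nil =>
      have h0 := hl.1
      simp [win] at h0
    | cons c rest =>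
      show _ = Z N q x back (t + 1) (back t + 1) (c :: rest)
      rw [Z_step_N q x back t hl.head_lt]
      have h3 : memB c rest = false := by
        by_contra h4
        simp only [Bool.not_eq_false] at h4
        exact hl.head ((memB_iff c rest).mp h4)
      simp [h3]

theorem sum_mem_of_stable (n : ℕ) : lsum N n (wt q x back) ∈ S := by
  have h2 := cone_down q x hb0 hb hK hS (cone_main q x hb0 hb hK hS n) (win back n) 0 (by omega)
  have h3 := hS.final _ h2
  have h4 : Z N q x back n 0 [] = lsum N n (wt q x back) := by
    unfold Z
    refine lsum_congr fun l _ _ => ?_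
    simp
  rwa [h4] at h3

end

end

end Vale.Agent.Lib.P066.K3
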