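import Vale.Agent.Lib.P066.K3.Alpha

/-!
The state vectors on levels one and two, and the telescoping sums for single terms.
-/

namespace Vale.Agent.Lib.P066.K3

open Finset

noncomputable section

variable {R : Type*} [CommRing R]

/-- The data: the number of colours, the parameter `q` and the variables. -/
structure Ctx (R : Type*) [CommRing R] where
  N : ℕ
  q : R
  x : ℕ → R

namespace Ctx

variable (K : Ctx R)

/-- `f_m(y)`: the coefficient of `t^m` in the product over `c ≠ y` of `1 + t x_c`, with an extra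
factor `q` on the colours below `y`. -/
def f (m y : ℕ) : R := ff K.q (range K.N) K.x m y

/-- The elementary symmetric polynomial `e_m`. -/
def e (m : ℕ) : R := ee (range K.N) K.x m

/-- The level-one vector `x_y f_j(y)`. -/
def v (j y : ℕ) : R := K.x y * K.f j y

/-- The level-two vector `F_j(a, b)`. -/
def Fv (j a b : ℕ) : R := qlt K.q a b * K.x a * K.x b * K.f j a

/-- The weights for the alphabet without `b`. -/
def wb (b c : ℕ) : R := qlt K.q c b * K.x c

/-- `g_s(a, b)`: the coefficient of `t^s` in the product over `c ≠ a, b`. -/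
def g (s a b : ℕ) : R := ff K.q ((range K.N).erase b) (K.wb b) s a

/-- The level-two vector `G_s(a, b)`. -/
def Gv (s a b : ℕ) : R := qlt K.q a b * K.x a * K.x b * K.g s a b

/-- A product term with two weights depending on the order of the colours. -/
def Term (i j : ℕ) (α β : R) (a b : ℕ) : R :=
  K.x a * K.x b * K.f i a * K.f j b * (if b < a then α else β)

/-- Closing the oldest of two vertices. -/
def opE (U : ℕ → ℕ → R) (b : ℕ) : R := ∑ a ∈ (range K.N).erase b, U a b

/-- Adding a newest vertex to two open vertices and closing the oldest one. -/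
def opR (U : ℕ → ℕ → R) (b c : ℕ) : R :=
  ∑ a ∈ ((range K.N).erase b).erase c, qlt K.q a c * qlt K.q b c * K.x c * U a b

/-- The two terms cancelled in the sums. -/
def PR (i j : ℕ) (α β : R) (b : ℕ) : R :=
  K.f j b * ((β - α) * K.f (i + 1) b + (β - K.q * α) * (K.x b * K.f i b))

theorem f_zero (y : ℕ) : K.f 0 y = 1 := ff_zero _ _ _ _

theorem gzs_symm (s a b : ℕ) : K.g s a b = K.g s b a := by
  unfold g ff FF
  rw [Finset.erase_right_comm]
  congr 1
  refine Finset.prod_congr rfl fun c _ => ?_
  unfold wb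
  congr 3
  ring

theorem sum_range_split (F : ℕ → R) {b n : ℕ} (hb : b < n) :
    ∑ a ∈ range n, F a = ∑ a ∈ Ico 0 b, F a + (F b + ∑ a ∈ Ico (b + 1) n, F a) := by
  rw [range_eq_Ico, ← Finset.sum_Ico_consecutive _ (Nat.zero_le b) hb.le,
    Finset.sum_eq_sum_Ico_succ_bot hb]

theorem sum_erase_split (F : ℕ → R) {b n : ℕ} (hb : b < n) :
    ∑ a ∈ (range n).erase b, F a = ∑ a ∈ Ico 0 b, F a + ∑ a ∈ Ico (b + 1) n, F a := by
  rw [Finset.sum_erase_eq_sub (mem_range.mpr hb), sum_range_split F hb]
  ring

theorem sum_erase2_split (F : ℕ → R) {b c n : ℕ} (hbc : b < c) (hc : c < n) :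
    ∑ a ∈ ((range n).erase b).erase c, F a =
      ∑ a ∈ Ico 0 b, F a + ∑ a ∈ Ico (b + 1) c, F a + ∑ a ∈ Ico (c + 1) n, F a := by
  have h1 : c ∈ (range n).erase b :=
    mem_erase.mpr ⟨by omega, mem_range.mpr hc⟩
  rw [Finset.sum_erase_eq_sub h1, sum_erase_split F (by omega : b < n),
    ← Finset.sum_Ico_consecutive _ (show b + 1 ≤ c by omega) hc.le,
    Finset.sum_eq_sum_Ico_succ_bot hc]
  ring

/-- Telescoping on an interval of colours. -/
theorem tel_f (m : ℕ) {u w : ℕ} (huw : u ≤ w) (hw : w ≤ K.N) :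
    (K.q - 1) * ∑ a ∈ Ico u w, K.x a * K.f m a =
      phi K.q (range K.N) K.x (m + 1) w - phi K.q (range K.N) K.x (m + 1) u := by
  rw [← tel_Ico K.q (range K.N) K.x m huw]
  congr 1
  refine Finset.sum_congr rfl fun a ha => ?_
  have : a < K.N := by have := (mem_Ico.mp ha).2; omega
  simp [gg', this, f]

theorem phi_self' {b : ℕ} (hb : b < K.N) (m : ℕ) :
    phi K.q (range K.N) K.x (m + 1) b = K.f (m + 1) b + K.x b * K.f m b :=
  phi_self _ _ _ (mem_range.mpr hb) m

theorem phi_succ' {b : ℕ} (hb : b < K.N) (m : ℕ) :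
    phi K.q (range K.N) K.x (m + 1) (b + 1) = K.f (m + 1) b + K.q * K.x b * K.f m b :=
  phi_succ _ _ _ (mem_range.mpr hb) m

theorem phi_zero' (m : ℕ) : phi K.q (range K.N) K.x m 0 = K.e m := phi_zero _ _ _ m

theorem phi_top' (m : ℕ) : phi K.q (range K.N) K.x m K.N = K.q ^ m * K.e m :=
  phi_top _ _ _ (subset_refl _) m

/-- The one-mark telescoping sum. -/
theorem tel_E {b : ℕ} (hb : b < K.N) (α β : R) (m : ℕ) :
    (K.q - 1) * ∑ a ∈ (range K.N).erase b, (if b < a then α else β) * (K.x a * K.f m a) =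
      (β - α) * K.f (m + 1) b + (β - K.q * α) * (K.x b * K.f m b) +
        (K.q ^ (m + 1) * α - β) * K.e (m + 1) := by
  rw [sum_erase_split _ hb]
  have h1 : ∑ a ∈ Ico 0 b, (if b < a then α else β) * (K.x a * K.f m a) =
      β * ∑ a ∈ Ico 0 b, K.x a * K.f m a := by
    rw [Finset.mul_sum]
    refine Finset.sum_congr rfl fun a ha => ?_
    have : ¬ b < a := by have := (mem_Ico.mp ha).2; omega
    rw [if_neg this]
  have h2 : ∑ a ∈ Ico (b + 1) K.N, (if b < a then α else β) * (K.x a * K.f m a) =
      α * ∑ a ∈ Ico (b + 1) K.N, K.x a * K.f m a := by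
    rw [Finset.mul_sum]
    refine Finset.sum_congr rfl fun a ha => ?_
    have : b < a := by have := (mem_Ico.mp ha).1; omega
    rw [if_pos this]
  rw [h1, h2]
  have h3 := K.tel_f m (Nat.zero_le b) hb.le
  have h4 := K.tel_f m (show b + 1 ≤ K.N by omega) le_rfl
  rw [phi_self' K hb, phi_zero'] at h3
  rw [phi_top', phi_succ' K hb] at h4
  linear_combination β * h3 + α * h4

/-- The two-mark telescoping sum. -/
theorem tel_R {b c : ℕ} (hb : b < K.N) (hc : c < K.N) (hbc : b ≠ c) (α β : R) (m : ℕ) :
    (K.q - 1) * ∑ a ∈ ((range K.N).erase b).erase c,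
        qlt K.q a c * ((if b < a then α else β) * (K.x a * K.f m a)) =
      qlt K.q b c * ((β - α) * K.f (m + 1) b + (β - K.q * α) * (K.x b * K.f m b)) +
        (K.q - 1) * (if b < c then α else β) * K.f (m + 1) c +
        (K.q ^ (m + 1) * α - K.q * β) * K.e (m + 1) := by
  rcases lt_or_gt_of_ne hbc with hlt | hlt
  · rw [sum_erase2_split _ hlt hc]
    have h1 : ∑ a ∈ Ico 0 b, qlt K.q a c * ((if b < a then α else β) * (K.x a * K.f m a)) =
        (K.q * β) * ∑ a ∈ Ico 0 b, K.x a * K.f m a := by
      rw [Finset.mul_sum]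
      refine Finset.sum_congr rfl fun a ha => ?_
      have h0 := (mem_Ico.mp ha).2
      rw [if_neg (by omega : ¬ b < a), qlt, if_pos (by omega : a < c)]
      ring
    have h2 : ∑ a ∈ Ico (b + 1) c, qlt K.q a c * ((if b < a then α else β) * (K.x a * K.f m a)) =
        (K.q * α) * ∑ a ∈ Ico (b + 1) c, K.x a * K.f m a := by
      rw [Finset.mul_sum]
      refine Finset.sum_congr rfl fun a ha => ?_
      have h0 := mem_Ico.mp ha
      rw [if_pos (by omega : b < a), qlt, if_pos (by omega : a < c)]
      ring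
    have h3 : ∑ a ∈ Ico (c + 1) K.N,
        qlt K.q a c * ((if b < a then α else β) * (K.x a * K.f m a)) =
        α * ∑ a ∈ Ico (c + 1) K.N, K.x a * K.f m a := by
      rw [Finset.mul_sum]
      refine Finset.sum_congr rfl fun a ha => ?_
      have h0 := mem_Ico.mp ha
      rw [if_pos (by omega : b < a), qlt, if_neg (by omega : ¬ a < c)]
      ring
    rw [h1, h2, h3, if_pos hlt, qlt, if_pos hlt]
    have h4 := K.tel_f m (Nat.zero_le b) hb.le
    have h5 := K.tel_f m (show b + 1 ≤ c by omega) hc.le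
    have h6 := K.tel_f m (show c + 1 ≤ K.N by omega) le_rfl
    rw [phi_self' K hb, phi_zero'] at h4
    rw [phi_self' K hc, phi_succ' K hb] at h5
    rw [phi_top', phi_succ' K hc] at h6
    linear_combination (K.q * β) * h4 + (K.q * α) * h5 + α * h6
  · have hlt' : c < b := hlt
    rw [Finset.erase_right_comm, sum_erase2_split _ hlt' hb]
    have h1 : ∑ a ∈ Ico 0 c, qlt K.q a c * ((if b < a then α else β) * (K.x a * K.f m a)) =
        (K.q * β) * ∑ a ∈ Ico 0 c, K.x a * K.f m a := by
      rw [Finset.mul_sum]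
      refine Finset.sum_congr rfl fun a ha => ?_
      have h0 := (mem_Ico.mp ha).2
      rw [if_neg (by omega : ¬ b < a), qlt, if_pos h0]
      ring
    have h2 : ∑ a ∈ Ico (c + 1) b, qlt K.q a c * ((if b < a then α else β) * (K.x a * K.f m a)) =
        β * ∑ a ∈ Ico (c + 1) b, K.x a * K.f m a := by
      rw [Finset.mul_sum]
      refine Finset.sum_congr rfl fun a ha => ?_
      have h0 := mem_Ico.mp ha
      rw [if_neg (by omega : ¬ b < a), qlt, if_neg (by omega : ¬ a < c)]
      ring
    have h3 : ∑ a ∈ Ico (b + 1) K.N,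
        qlt K.q a c * ((if b < a then α else β) * (K.x a * K.f m a)) =
        α * ∑ a ∈ Ico (b + 1) K.N, K.x a * K.f m a := by
      rw [Finset.mul_sum]
      refine Finset.sum_congr rfl fun a ha => ?_
      have h0 := mem_Ico.mp ha
      rw [if_pos (by omega : b < a), qlt, if_neg (by omega : ¬ a < c)]
      ring
    rw [h1, h2, h3, if_neg (by omega : ¬ b < c), qlt, if_neg (by omega : ¬ b < c)]
    have h4 := K.tel_f m (Nat.zero_le c) hc.le
    have h5 := K.tel_f m (show c + 1 ≤ b by omega) hb.le
    have h6 := K.tel_f m (show b + 1 ≤ K.N by omega) le_rfl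
    rw [phi_self' K hc, phi_zero'] at h4
    rw [phi_self' K hb, phi_succ' K hc] at h5
    rw [phi_top', phi_succ' K hb] at h6
    linear_combination (K.q * β) * h4 + β * h5 + α * h6

/-- Closing a vertex in a single term. -/
theorem E_Term {b : ℕ} (hb : b < K.N) (i j : ℕ) (α β : R) :
    (K.q - 1) * K.opE (K.Term i j α β) b =
      K.x b * K.PR i j α β b + (K.q ^ (i + 1) * α - β) * K.e (i + 1) * K.v j b := by
  have h : K.opE (K.Term i j α β) b =
      (K.x b * K.f j b) *
        ∑ a ∈ (range K.N).erase b, (if b < a then α else β) * (K.x a * K.f i a) := by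
    unfold opE Term
    rw [Finset.mul_sum]
    refine Finset.sum_congr rfl fun a _ => ?_
    ring
  rw [h]
  have h2 := K.tel_E hb α β i
  unfold PR v
  linear_combination (K.x b * K.f j b) * h2

/-- The window slide on a single term. -/
theorem R_Term {b c : ℕ} (hb : b < K.N) (hc : c < K.N) (hbc : b ≠ c) (i j : ℕ) (α β : R) :
    (K.q - 1) * K.opR (K.Term i j α β) b c =
      (K.q - 1) * K.Term j (i + 1) β (K.q * α) b c +
        qlt K.q b c ^ 2 * K.x b * K.x c * K.PR i j α β b +
        (K.q ^ (i + 1) * α - K.q * β) * K.e (i + 1) * K.Fv j b c := by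
  have h : K.opR (K.Term i j α β) b c =
      (qlt K.q b c * K.x c * K.x b * K.f j b) *
        ∑ a ∈ ((range K.N).erase b).erase c,
          qlt K.q a c * ((if b < a then α else β) * (K.x a * K.f i a)) := by
    unfold opR Term
    rw [Finset.mul_sum]
    refine Finset.sum_congr rfl fun a _ => ?_
    ring
  rw [h]
  have h2 := K.tel_R hb hc hbc α β i
  have h3 : qlt K.q b c * (if b < c then α else β) = if c < b then β else K.q * α := by
    rcases lt_or_gt_of_ne hbc with hlt | hlt
    · rw [qlt, if_pos hlt, if_pos hlt, if_neg (by omega)]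
    · have hlt' : c < b := hlt
      rw [qlt, if_neg (by omega), if_neg (by omega), if_pos hlt', one_mul]
  unfold PR Term Fv
  rw [← h3]
  linear_combination (qlt K.q b c * K.x c * K.x b * K.f j b) * h2

end Ctx

end

end Vale.Agent.Lib.P066.K3
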