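import Vale.Agent.Lib.P066.K3.Rules1

/-!
The rules on levels one and two.
-/

namespace Vale.Agent.Lib.P066.K3

open Finset

noncomputable section

variable {R : Type*} [CommRing R]

namespace Ctx

variable (K : Ctx R)

/-- The `q`-integer `[m]`. -/
def qn (m : ℕ) : R := ∑ i ∈ range m, K.q ^ i

theorem qn_mul (m : ℕ) : (K.q - 1) * K.qn m = K.q ^ m - 1 := mul_geom_sum K.q m

/-- The terms of `B_{d,s}` of the first kind. -/
def Au (d s u : ℕ) : ℕ → ℕ → R := K.Term (s - u) u (K.q ^ u) (K.q ^ (s - u - d + 1))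

/-- The terms of `B_{d,s}` of the second kind. -/
def Cu (d s u : ℕ) : ℕ → ℕ → R := K.Term u (s - u) (K.q ^ (s - u - d)) (K.q ^ (u + 1))

/-- The level-two vector `B_{d,s}`. -/
def BB (d s a b : ℕ) : R :=
  ∑ u ∈ range (s + 1),
    ((if d + 2 * u ≤ s then K.Au d s u a b else 0) +
      (if d + 2 * u + 1 ≤ s then K.Cu d s u a b else 0))

/-- The cancellation of the terms `PR` over `B_{d,s}`. -/
theorem PR_sum {d s : ℕ} (hds : d ≤ s) (b : ℕ) :
    ∑ u ∈ range (s + 1),
      ((if d + 2 * u ≤ s then K.PR (s - u) u (K.q ^ u) (K.q ^ (s - u - d + 1)) b else 0) +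
        (if d + 2 * u + 1 ≤ s then K.PR u (s - u) (K.q ^ (s - u - d)) (K.q ^ (u + 1)) b else 0)) =
      (K.q ^ (s - d + 1) - 1) * K.f (s + 1) b := by
  set P : ℕ → R := fun u => K.f u b * K.f (s - u + 1) b with hP
  set aa : ℕ → R := fun u => if d + 2 * u ≤ s then K.q ^ (s - u - d + 1) - K.q ^ u else 0 with haa
  set cc : ℕ → R := fun u => if d + 2 * u + 1 ≤ s then K.q ^ (u + 1) - K.q ^ (s - u - d) else 0
    with hcc
  have step : ∀ u ∈ range (s + 1),
      ((if d + 2 * u ≤ s then K.PR (s - u) u (K.q ^ u) (K.q ^ (s - u - d + 1)) b else 0) +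
        (if d + 2 * u + 1 ≤ s then K.PR u (s - u) (K.q ^ (s - u - d)) (K.q ^ (u + 1)) b else 0)) =
      aa u * P u + cc u * P (u + 1) := by
    intro u _
    simp only [haa, hcc, hP]
    by_cases h1 : d + 2 * u + 1 ≤ s
    · have h2 : d + 2 * u ≤ s := by omega
      have h3 : s - (u + 1) + 1 = s - u := by omega
      rw [if_pos h1, if_pos h2, if_pos h1, if_pos h2, h3]
      unfold PR
      ring
    · by_cases h2 : d + 2 * u ≤ s
      · have h3 : s - u - d = u := by omega
        rw [if_neg h1, if_pos h2, if_neg h1, if_pos h2, h3]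
        unfold PR
        ring
      · rw [if_neg h1, if_neg h2, if_neg h1, if_neg h2]
        ring
  rw [Finset.sum_congr rfl step, Finset.sum_add_distrib, Finset.sum_range_succ' (fun u => aa u * P u),
    Finset.sum_range_succ (fun u => cc u * P (u + 1))]
  have h0 : ∑ u ∈ range s, aa (u + 1) * P (u + 1) + ∑ u ∈ range s, cc u * P (u + 1) = 0 := by
    rw [← Finset.sum_add_distrib]
    refine Finset.sum_eq_zero fun u _ => ?_
    simp only [haa, hcc]
    by_cases h1 : d + 2 * u + 2 ≤ s
    · have h2 : d + 2 * (u + 1) ≤ s := by omega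
      have h3 : d + 2 * u + 1 ≤ s := by omega
      have h4 : s - (u + 1) - d + 1 = s - u - d := by omega
      rw [if_pos h2, if_pos h3, h4]
      ring
    · have h2 : ¬ d + 2 * (u + 1) ≤ s := by omega
      by_cases h3 : d + 2 * u + 1 ≤ s
      · have h4 : s - u - d = u + 1 := by omega
        rw [if_neg h2, if_pos h3, h4]
        ring
      · rw [if_neg h2, if_neg h3]
        ring
  have hs : cc s = 0 := by
    simp only [hcc]
    rw [if_neg (by omega)]
  have ha0 : aa 0 = K.q ^ (s - d + 1) - 1 := by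
    simp only [haa]
    rw [if_pos (by omega)]
    simp
  have hP0 : P 0 = K.f (s + 1) b := by
    simp only [hP]
    rw [K.f_zero]
    simp
  rw [hs, ha0, hP0]
  linear_combination h0

theorem opE_BB (d s b : ℕ) :
    K.opE (K.BB d s) b =
      ∑ u ∈ range (s + 1),
        ((if d + 2 * u ≤ s then K.opE (K.Au d s u) b else 0) +
          (if d + 2 * u + 1 ≤ s then K.opE (K.Cu d s u) b else 0)) := by
  unfold opE BB
  rw [Finset.sum_comm]
  refine Finset.sum_congr rfl fun u _ => ?_
  rw [Finset.sum_add_distrib]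
  split_ifs <;> simp

theorem opR_BB (d s b c : ℕ) :
    K.opR (K.BB d s) b c =
      ∑ u ∈ range (s + 1),
        ((if d + 2 * u ≤ s then K.opR (K.Au d s u) b c else 0) +
          (if d + 2 * u + 1 ≤ s then K.opR (K.Cu d s u) b c else 0)) := by
  unfold opR BB
  simp only [Finset.mul_sum]
  rw [Finset.sum_comm]
  refine Finset.sum_congr rfl fun u _ => ?_
  simp only [mul_add, Finset.sum_add_distrib]
  split_ifs <;> simp

/-- The rule for closing a vertex in `B_{d,s}`. -/
theorem E_BB [IsDomain R] (hq : K.q ≠ 1) {d s b : ℕ} (hds : d ≤ s) (hb : b < K.N) :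
    K.opE (K.BB d s) b =
      K.qn (s - d + 1) * K.v (s + 1) b +
        ∑ u ∈ range (s + 1),
          ((if d + 2 * u ≤ s then
              K.q ^ (s - u - d + 1) * K.qn (u + d) * K.e (s - u + 1) * K.v u b else 0) +
            (if d + 2 * u + 1 ≤ s then
              K.q ^ (u + 1) * K.qn (s - u - d) * K.e (u + 1) * K.v (s - u) b else 0)) := by
  apply mul_left_cancel₀ (sub_ne_zero.mpr hq)
  have key : ∀ u ∈ range (s + 1),
      (K.q - 1) * ((if d + 2 * u ≤ s then K.opE (K.Au d s u) b else 0) +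
          (if d + 2 * u + 1 ≤ s then K.opE (K.Cu d s u) b else 0)) =
        K.x b *
          ((if d + 2 * u ≤ s then K.PR (s - u) u (K.q ^ u) (K.q ^ (s - u - d + 1)) b else 0) +
            (if d + 2 * u + 1 ≤ s then
              K.PR u (s - u) (K.q ^ (s - u - d)) (K.q ^ (u + 1)) b else 0)) +
        (K.q - 1) * ((if d + 2 * u ≤ s then
              K.q ^ (s - u - d + 1) * K.qn (u + d) * K.e (s - u + 1) * K.v u b else 0) +
            (if d + 2 * u + 1 ≤ s then
              K.q ^ (u + 1) * K.qn (s - u - d) * K.e (u + 1) * K.v (s - u) b else 0)) := by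
    intro u _
    have hA : d + 2 * u ≤ s → (K.q - 1) * K.opE (K.Au d s u) b =
        K.x b * K.PR (s - u) u (K.q ^ u) (K.q ^ (s - u - d + 1)) b +
          (K.q - 1) * (K.q ^ (s - u - d + 1) * K.qn (u + d) * K.e (s - u + 1) * K.v u b) := by
      intro h
      unfold Au
      rw [K.E_Term hb]
      have h1 : K.q ^ (s - u + 1) * K.q ^ u = K.q ^ (s - u - d + 1) * K.q ^ (u + d) := by
        rw [← pow_add, ← pow_add]
        congr 1
        omega
      have h2 := K.qn_mul (u + d)
      linear_combination (K.e (s - u + 1) * K.v u b) * h1 +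
        (K.q ^ (s - u - d + 1) * K.e (s - u + 1) * K.v u b) * (-h2)
    have hC : d + 2 * u + 1 ≤ s → (K.q - 1) * K.opE (K.Cu d s u) b =
        K.x b * K.PR u (s - u) (K.q ^ (s - u - d)) (K.q ^ (u + 1)) b +
          (K.q - 1) * (K.q ^ (u + 1) * K.qn (s - u - d) * K.e (u + 1) * K.v (s - u) b) := by
      intro _
      unfold Cu
      rw [K.E_Term hb]
      have h2 := K.qn_mul (s - u - d)
      linear_combination (K.q ^ (u + 1) * K.e (u + 1) * K.v (s - u) b) * (-h2)
    by_cases h1 : d + 2 * u ≤ s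
    · by_cases h2 : d + 2 * u + 1 ≤ s
      · rw [if_pos h1, if_pos h2, if_pos h1, if_pos h2, if_pos h1, if_pos h2]
        linear_combination hA h1 + hC h2
      · rw [if_pos h1, if_neg h2, if_pos h1, if_neg h2, if_pos h1, if_neg h2]
        linear_combination hA h1
    · have h2 : ¬ d + 2 * u + 1 ≤ s := by omega
      rw [if_neg h1, if_neg h2, if_neg h1, if_neg h2, if_neg h1, if_neg h2]
      ring
  rw [K.opE_BB, Finset.mul_sum, Finset.sum_congr rfl key, Finset.sum_add_distrib,
    ← Finset.mul_sum, ← Finset.mul_sum, K.PR_sum hds, mul_add]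
  have h3 := K.qn_mul (s - d + 1)
  unfold v at *
  linear_combination (-(K.x b * K.f (s + 1) b)) * h3

/-- Rewriting `B_{d,s+1}` by the shift of indices. -/
theorem BB_succ {d s : ℕ} (hds : d ≤ s) (a b : ℕ) :
    K.BB d (s + 1) a b =
      K.Au d (s + 1) 0 a b +
        ∑ u ∈ range (s + 1),
          ((if d + 2 * u ≤ s then K.Cu d (s + 1) u a b else 0) +
            (if d + 2 * u + 1 ≤ s then K.Au d (s + 1) (u + 1) a b else 0)) := by
  unfold BB
  rw [Finset.sum_add_distrib, Finset.sum_add_distrib, Finset.sum_range_succ',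
    Finset.sum_range_succ (fun u => if d + 2 * u + 1 ≤ s + 1 then K.Cu d (s + 1) u a b else 0)]
  have h1 : (if d + 2 * 0 ≤ s + 1 then K.Au d (s + 1) 0 a b else 0) = K.Au d (s + 1) 0 a b := by
    rw [if_pos (by omega)]
  have h2 : (if d + 2 * (s + 1) + 1 ≤ s + 1 then K.Cu d (s + 1) (s + 1) a b else 0) = 0 := by
    rw [if_neg (by omega)]
  have h3 : ∑ u ∈ range (s + 1),
      (if d + 2 * (u + 1) ≤ s + 1 then K.Au d (s + 1) (u + 1) a b else 0) =
      ∑ u ∈ range (s + 1), (if d + 2 * u + 1 ≤ s then K.Au d (s + 1) (u + 1) a b else 0) := by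
    refine Finset.sum_congr rfl fun u _ => ?_
    have : d + 2 * (u + 1) ≤ s + 1 ↔ d + 2 * u + 1 ≤ s := by omega
    simp only [this]
  have h4 : ∑ u ∈ range (s + 1),
      (if d + 2 * u + 1 ≤ s + 1 then K.Cu d (s + 1) u a b else 0) =
      ∑ u ∈ range (s + 1), (if d + 2 * u ≤ s then K.Cu d (s + 1) u a b else 0) := by
    refine Finset.sum_congr rfl fun u _ => ?_
    have : d + 2 * u + 1 ≤ s + 1 ↔ d + 2 * u ≤ s := by omega
    simp only [this]
  rw [h1, h2, h3, h4]
  ring

/-- The rule for the window slide on `B_{d,s}`. -/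
theorem R_BB [IsDomain R] (hq : K.q ≠ 1) {d s b c : ℕ} (hd : 1 ≤ d) (hds : d ≤ s) (hb : b < K.N)
    (hc : c < K.N) (hbc : b ≠ c) :
    K.opR (K.BB d s) b c =
      K.BB d (s + 1) b c + K.q * K.qn (s - d) * K.Fv (s + 1) b c +
        ∑ u ∈ range (s + 1),
          ((if d + 2 * u ≤ s then
              K.q ^ (s - u - d + 2) * K.qn (u + d - 1) * K.e (s - u + 1) * K.Fv u b c else 0) +
            (if d + 2 * u + 1 ≤ s then
              K.q ^ (u + 2) * K.qn (s - u - d - 1) * K.e (u + 1) * K.Fv (s - u) b c else 0)) := by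
  apply mul_left_cancel₀ (sub_ne_zero.mpr hq)
  have key : ∀ u ∈ range (s + 1),
      (K.q - 1) * ((if d + 2 * u ≤ s then K.opR (K.Au d s u) b c else 0) +
          (if d + 2 * u + 1 ≤ s then K.opR (K.Cu d s u) b c else 0)) =
        (K.q - 1) * ((if d + 2 * u ≤ s then K.Cu d (s + 1) u b c else 0) +
            (if d + 2 * u + 1 ≤ s then K.Au d (s + 1) (u + 1) b c else 0)) +
        qlt K.q b c ^ 2 * K.x b * K.x c *
          ((if d + 2 * u ≤ s then K.PR (s - u) u (K.q ^ u) (K.q ^ (s - u - d + 1)) b else 0) +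
            (if d + 2 * u + 1 ≤ s then
              K.PR u (s - u) (K.q ^ (s - u - d)) (K.q ^ (u + 1)) b else 0)) +
        (K.q - 1) * ((if d + 2 * u ≤ s then
              K.q ^ (s - u - d + 2) * K.qn (u + d - 1) * K.e (s - u + 1) * K.Fv u b c else 0) +
            (if d + 2 * u + 1 ≤ s then
              K.q ^ (u + 2) * K.qn (s - u - d - 1) * K.e (u + 1) * K.Fv (s - u) b c else 0)) := by
    intro u _
    have hA : d + 2 * u ≤ s → (K.q - 1) * K.opR (K.Au d s u) b c =
        (K.q - 1) * K.Cu d (s + 1) u b c +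
        qlt K.q b c ^ 2 * K.x b * K.x c * K.PR (s - u) u (K.q ^ u) (K.q ^ (s - u - d + 1)) b +
          (K.q - 1) * (K.q ^ (s - u - d + 2) * K.qn (u + d - 1) * K.e (s - u + 1) * K.Fv u b c) := by
      intro h
      unfold Au
      rw [K.R_Term hb hc hbc]
      have h1 : K.q ^ (s - u + 1) * K.q ^ u = K.q ^ (s - u - d + 2) * K.q ^ (u + d - 1) := by
        rw [← pow_add, ← pow_add]
        congr 1
        omega
      have h2 := K.qn_mul (u + d - 1)
      have h3 : K.Cu d (s + 1) u b c =
          K.Term u (s - u + 1) (K.q ^ (s - u - d + 1)) (K.q * K.q ^ u) b c := by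
        unfold Cu
        have h4 : s + 1 - u = s - u + 1 := by omega
        have h5 : s - u + 1 - d = s - u - d + 1 := by omega
        rw [h4, h5, pow_succ' K.q u]
      rw [h3]
      have h6 : K.q * K.q ^ (s - u - d + 1) = K.q ^ (s - u - d + 2) := by ring
      linear_combination (K.e (s - u + 1) * K.Fv u b c) * h1 +
        (K.q ^ (s - u - d + 2) * K.e (s - u + 1) * K.Fv u b c) * (-h2) +
        (-(K.e (s - u + 1) * K.Fv u b c)) * h6
    have hC : d + 2 * u + 1 ≤ s → (K.q - 1) * K.opR (K.Cu d s u) b c =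
        (K.q - 1) * K.Au d (s + 1) (u + 1) b c +
        qlt K.q b c ^ 2 * K.x b * K.x c * K.PR u (s - u) (K.q ^ (s - u - d)) (K.q ^ (u + 1)) b +
          (K.q - 1) * (K.q ^ (u + 2) * K.qn (s - u - d - 1) * K.e (u + 1) * K.Fv (s - u) b c) := by
      intro h
      unfold Cu
      rw [K.R_Term hb hc hbc]
      have h1 : K.q ^ (u + 1) * K.q ^ (s - u - d) = K.q ^ (u + 2) * K.q ^ (s - u - d - 1) := by
        rw [← pow_add, ← pow_add]
        congr 1
        omega
      have h2 := K.qn_mul (s - u - d - 1)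
      have h3 : K.Au d (s + 1) (u + 1) b c =
          K.Term (s - u) (u + 1) (K.q ^ (u + 1)) (K.q * K.q ^ (s - u - d)) b c := by
        unfold Au
        have h4 : s + 1 - (u + 1) = s - u := by omega
        rw [h4, ← pow_succ' K.q (s - u - d)]
      rw [h3]
      linear_combination (K.e (u + 1) * K.Fv (s - u) b c) * h1 +
        (K.q ^ (u + 2) * K.e (u + 1) * K.Fv (s - u) b c) * (-h2)
    by_cases h1 : d + 2 * u ≤ s
    · by_cases h2 : d + 2 * u + 1 ≤ s
      · simp only [if_pos h1, if_pos h2]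
        linear_combination hA h1 + hC h2
      · simp only [if_pos h1, if_neg h2]
        linear_combination hA h1
    · have h2 : ¬ d + 2 * u + 1 ≤ s := by omega
      simp only [if_neg h1, if_neg h2]
      ring
  rw [K.opR_BB, Finset.mul_sum, Finset.sum_congr rfl key, Finset.sum_add_distrib,
    Finset.sum_add_distrib, ← Finset.mul_sum, ← Finset.mul_sum, ← Finset.mul_sum, K.PR_sum hds,
    K.BB_succ hds, mul_add, mul_add]
  have hfin : qlt K.q b c ^ 2 * K.x b * K.x c * ((K.q ^ (s - d + 1) - 1) * K.f (s + 1) b) =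
      (K.q - 1) * K.Au d (s + 1) 0 b c + (K.q - 1) * (K.q * K.qn (s - d) * K.Fv (s + 1) b c) := by
    have h1 := K.qn_mul (s - d)
    have h2 : s + 1 - 0 - d + 1 = s - d + 2 := by omega
    unfold Au Term Fv
    rw [h2, Nat.sub_zero, K.f_zero]
    rcases lt_or_gt_of_ne hbc with hlt | hlt
    · rw [if_neg (by omega), qlt, if_pos hlt]
      linear_combination
        (-(K.q * K.q * K.x b * K.x c * K.f (s + 1) b)) * h1
    · have hlt' : c < b := hlt
      rw [if_pos hlt', qlt, if_neg (by omega)]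
      linear_combination (-(K.q * K.x b * K.x c * K.f (s + 1) b)) * h1
  linear_combination hfin

/-- Level one, closing the last vertex. -/
theorem E_v [IsDomain R] (hq : K.q ≠ 1) (j : ℕ) :
    ∑ a ∈ range K.N, K.v j a = K.qn (j + 1) * K.e (j + 1) := by
  apply mul_left_cancel₀ (sub_ne_zero.mpr hq)
  have h := tel_all K.q (range K.N) K.x (subset_refl _) j
  have h2 := K.qn_mul (j + 1)
  unfold v f e
  linear_combination h + (-(ee (range K.N) K.x (j + 1))) * h2

theorem E_Gv [IsDomain R] (hq : K.q ≠ 1) {b : ℕ} (s : ℕ) :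
    K.opE (K.Gv s) b = K.qn (s + 1) * K.v (s + 1) b := by
  apply mul_left_cancel₀ (sub_ne_zero.mpr hq)
  have hT : (range K.N).erase b ⊆ range K.N := Finset.erase_subset _ _
  have h := tel_all K.q ((range K.N).erase b) (K.wb b) hT s
  have h2 := K.qn_mul (s + 1)
  have h3 : ee ((range K.N).erase b) (K.wb b) (s + 1) = K.f (s + 1) b := rfl
  rw [h3] at h
  have h4 : K.opE (K.Gv s) b =
      K.x b * ∑ a ∈ (range K.N).erase b, K.wb b a * ff K.q ((range K.N).erase b) (K.wb b) s a := by
    unfold opE Gv g wb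
    rw [Finset.mul_sum]
    refine Finset.sum_congr rfl fun a _ => ?_
    ring
  rw [h4]
  unfold v
  linear_combination (K.x b) * h + (-(K.x b * K.f (s + 1) b)) * h2

theorem R_Gv [IsDomain R] (hq : K.q ≠ 1) {b c : ℕ} (hc : c < K.N) (hbc : b ≠ c) (s : ℕ) :
    K.opR (K.Gv s) b c = K.Gv (s + 1) b c + K.q * K.qn s * K.Fv (s + 1) b c := by
  apply mul_left_cancel₀ (sub_ne_zero.mpr hq)
  have hT : (range K.N).erase b ⊆ range K.N := Finset.erase_subset _ _
  have hcT : c ∈ (range K.N).erase b :=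
    Finset.mem_erase.mpr ⟨hbc.symm, Finset.mem_range.mpr hc⟩
  have h := tel_mark K.q ((range K.N).erase b) (K.wb b) hT hcT s
  have h2 := K.qn_mul s
  have h3 : ee ((range K.N).erase b) (K.wb b) (s + 1) = K.f (s + 1) b := rfl
  have h5 : ff K.q ((range K.N).erase b) (K.wb b) (s + 1) c = K.g (s + 1) b c :=
    K.gzs_symm (s + 1) c b
  rw [h3, h5] at h
  have h4 : K.opR (K.Gv s) b c =
      (qlt K.q b c * K.x b * K.x c) * ∑ a ∈ ((range K.N).erase b).erase c,
        qlt K.q a c * (K.wb b a * ff K.q ((range K.N).erase b) (K.wb b) s a) := by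
    unfold opR Gv g wb
    rw [Finset.mul_sum]
    refine Finset.sum_congr rfl fun a _ => ?_
    ring
  rw [h4]
  unfold Gv Fv
  linear_combination (qlt K.q b c * K.x b * K.x c) * h +
    (-(K.q * qlt K.q b c * K.x b * K.x c * K.f (s + 1) b)) * h2

theorem Fv_zero_eq (a b : ℕ) : K.Fv 0 a b = K.Gv 0 a b := by
  unfold Fv Gv g
  rw [K.f_zero, ff_zero]

theorem Fv_eq_BB {j a b : ℕ} (hab : a ≠ b) : K.Fv j a b = K.BB j j a b := by
  unfold BB
  rw [Finset.sum_eq_single 0]
  · rw [if_pos (by omega), if_neg (by omega), add_zero]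
    unfold Au Term Fv
    rw [K.f_zero]
    rcases lt_or_gt_of_ne hab with hlt | hlt
    · rw [qlt, if_pos hlt, if_neg (by omega)]
      have h1 : j - 0 - j + 1 = 1 := by omega
      rw [h1, Nat.sub_zero]
      ring
    · have hlt' : b < a := hlt
      rw [qlt, if_neg (by omega), if_pos hlt', Nat.sub_zero]
      ring
  · intro u _ hu
    rw [if_neg (by omega), if_neg (by omega), add_zero]
  · intro h
    simp at h

end Ctx

end

end Vale.Agent.Lib.P066.K3
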