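import Vale.Agent.Lib.P066.K3.Rules2
import Vale.Agent.Lib.P066.K3.GGraph

/-!
The stable family of cones on levels zero to three.
-/

namespace Vale.Agent.Lib.P066.K3

open Finset Vale.Agent.Lib.P066

noncomputable section

variable {R : Type*} [CommRing R]

namespace Ctx

variable (K : Ctx R) (S : Subsemiring R)

/-- The cone on level one. -/
def Cone1 : Submodule S (ℕ → R) := Submodule.span S (Set.range K.v)

/-- The generators on level two. -/
def Gen2 : Set (ℕ → ℕ → R) :=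
  {U | ∃ s, U = K.Gv s} ∪ {U | ∃ d s, 1 ≤ d ∧ d ≤ s ∧ U = K.BB d s}

/-- The cone on level two. -/
def Cone2 : Submodule S (ℕ → ℕ → R) := Submodule.span S (K.Gen2)

/-- The vector equal to `F_j` on pairs of distinct colours. -/
def FW (j : ℕ) : ℕ → ℕ → R := if j = 0 then K.Gv 0 else K.BB j j

variable {S}

theorem mem1_mul {p : R} (hp : p ∈ S) {U : ℕ → R} (hU : U ∈ K.Cone1 S) :
    (fun y => p * U y) ∈ K.Cone1 S :=
  (K.Cone1 S).smul_mem (⟨p, hp⟩ : S) hU

theorem mem2_mul {p : R} (hp : p ∈ S) {U : ℕ → ℕ → R} (hU : U ∈ K.Cone2 S) :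
    (fun a b => p * U a b) ∈ K.Cone2 S :=
  (K.Cone2 S).smul_mem (⟨p, hp⟩ : S) hU

theorem mem1_add {U W : ℕ → R} (hU : U ∈ K.Cone1 S) (hW : W ∈ K.Cone1 S) :
    (fun y => U y + W y) ∈ K.Cone1 S := (K.Cone1 S).add_mem hU hW

theorem mem2_add {U W : ℕ → ℕ → R} (hU : U ∈ K.Cone2 S) (hW : W ∈ K.Cone2 S) :
    (fun a b => U a b + W a b) ∈ K.Cone2 S := (K.Cone2 S).add_mem hU hW

theorem mem1_sum (s : Finset ℕ) {F : ℕ → ℕ → R} (h : ∀ u ∈ s, F u ∈ K.Cone1 S) :
    (fun y => ∑ u ∈ s, F u y) ∈ K.Cone1 S := by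
  have := (K.Cone1 S).sum_mem h
  convert this using 1
  funext y
  simp

theorem mem2_sum (s : Finset ℕ) {F : ℕ → ℕ → ℕ → R} (h : ∀ u ∈ s, F u ∈ K.Cone2 S) :
    (fun a b => ∑ u ∈ s, F u a b) ∈ K.Cone2 S := by
  have := (K.Cone2 S).sum_mem h
  convert this using 1
  funext a b
  simp

theorem mem1_ite (c : Prop) [Decidable c] {U : ℕ → R} (h : c → U ∈ K.Cone1 S) :
    (fun y => if c then U y else 0) ∈ K.Cone1 S := by
  by_cases hc : c
  · simpa [hc] using h hc
  · have h0 : (fun y => if c then U y else 0) = 0 := by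
      funext y
      simp [hc]
    rw [h0]
    exact (K.Cone1 S).zero_mem

theorem mem2_ite (c : Prop) [Decidable c] {U : ℕ → ℕ → R} (h : c → U ∈ K.Cone2 S) :
    (fun a b => if c then U a b else 0) ∈ K.Cone2 S := by
  by_cases hc : c
  · simpa [hc] using h hc
  · have h0 : (fun a b => if c then U a b else 0) = 0 := by
      funext a b
      simp [hc]
    rw [h0]
    exact (K.Cone2 S).zero_mem

theorem v_mem (j : ℕ) : K.v j ∈ K.Cone1 S :=
  Submodule.subset_span ⟨j, rfl⟩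

theorem Gv_mem (s : ℕ) : K.Gv s ∈ K.Cone2 S :=
  Submodule.subset_span (Or.inl ⟨s, rfl⟩)

theorem BB_mem {d s : ℕ} (hd : 1 ≤ d) (hds : d ≤ s) : K.BB d s ∈ K.Cone2 S :=
  Submodule.subset_span (Or.inr ⟨d, s, hd, hds, rfl⟩)

theorem FW_mem (j : ℕ) : K.FW j ∈ K.Cone2 S := by
  unfold FW
  split_ifs with h
  · exact K.Gv_mem 0
  · exact K.BB_mem (by omega) le_rfl

theorem Fv_eq_FW (j : ℕ) {a b : ℕ} (hab : a ≠ b) : K.Fv j a b = K.FW j a b := by
  unfold FW
  split_ifs with h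
  · subst h
    exact K.Fv_zero_eq a b
  · exact K.Fv_eq_BB hab

variable (hqS : K.q ∈ S) (heS : ∀ m, K.e m ∈ S)

include hqS in
theorem qn_mem (m : ℕ) : K.qn m ∈ S :=
  S.sum_mem fun i _ => S.pow_mem hqS i

include hqS heS in
/-- Level one to level zero. -/
theorem L1E [IsDomain R] (hq : K.q ≠ 1) (V : ℕ → R) (hV : V ∈ K.Cone1 S) :
    ∑ a ∈ range K.N, V a ∈ S := by
  induction hV using Submodule.span_induction with
  | mem U hU =>
    obtain ⟨j, rfl⟩ := hU
    rw [K.E_v hq]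
    exact S.mul_mem (K.qn_mem hqS _) (heS _)
  | zero => simp
  | add U W _ _ hU hW =>
    simp only [Pi.add_apply, Finset.sum_add_distrib]
    exact S.add_mem hU hW
  | smul p U _ hU =>
    have : ∑ a ∈ range K.N, (p • U) a = (p : R) * ∑ a ∈ range K.N, U a := by
      rw [Finset.mul_sum]
      rfl
    rw [this]
    exact S.mul_mem p.2 hU

/-- Level one to level two. -/
theorem L1N (V : ℕ → R) (hV : V ∈ K.Cone1 S) :
    ∃ W ∈ K.Cone2 S, ∀ a b, a ≠ b → qlt K.q a b * K.x b * V a = W a b := by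
  induction hV using Submodule.span_induction with
  | mem U hU =>
    obtain ⟨j, rfl⟩ := hU
    refine ⟨K.FW j, K.FW_mem j, fun a b hab => ?_⟩
    rw [← K.Fv_eq_FW j hab]
    unfold v Fv
    ring
  | zero =>
    refine ⟨0, (K.Cone2 S).zero_mem, fun a b _ => ?_⟩
    simp
  | add U W _ _ hU hW =>
    obtain ⟨A, hA, hA'⟩ := hU
    obtain ⟨B, hB, hB'⟩ := hW
    refine ⟨A + B, (K.Cone2 S).add_mem hA hB, fun a b hab => ?_⟩
    simp only [Pi.add_apply, mul_add, hA' a b hab, hB' a b hab]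
  | smul p U _ hU =>
    obtain ⟨A, hA, hA'⟩ := hU
    refine ⟨p • A, (K.Cone2 S).smul_mem p hA, fun a b hab => ?_⟩
    have h1 : (p • A) a b = (p : R) * A a b := rfl
    have h2 : (p • U) a = (p : R) * U a := rfl
    rw [h1, h2, ← hA' a b hab]
    ring

include hqS heS in
/-- Level two to level one. -/
theorem L2E [IsDomain R] (hq : K.q ≠ 1) (U : ℕ → ℕ → R) (hU : U ∈ K.Cone2 S) :
    ∃ V ∈ K.Cone1 S, ∀ b, b < K.N → K.opE U b = V b := by
  induction hU using Submodule.span_induction with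
  | mem U hU =>
    rcases hU with ⟨s, rfl⟩ | ⟨d, s, hd, hds, rfl⟩
    · refine ⟨fun y => K.qn (s + 1) * K.v (s + 1) y,
        K.mem1_mul (K.qn_mem hqS _) (K.v_mem _), fun b _ => K.E_Gv hq s⟩
    · refine ⟨fun y => K.qn (s - d + 1) * K.v (s + 1) y +
        ∑ u ∈ range (s + 1),
          ((if d + 2 * u ≤ s then
              K.q ^ (s - u - d + 1) * K.qn (u + d) * K.e (s - u + 1) * K.v u y else 0) +
            (if d + 2 * u + 1 ≤ s then
              K.q ^ (u + 1) * K.qn (s - u - d) * K.e (u + 1) * K.v (s - u) y else 0)), ?_,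
          fun b hb => K.E_BB hq hds hb⟩
      refine K.mem1_add (K.mem1_mul (K.qn_mem hqS _) (K.v_mem _)) ?_
      refine K.mem1_sum _ fun u _ => ?_
      refine K.mem1_add (K.mem1_ite _ fun _ => ?_) (K.mem1_ite _ fun _ => ?_)
      · exact K.mem1_mul (S.mul_mem (S.mul_mem (S.pow_mem hqS _) (K.qn_mem hqS _)) (heS _))
          (K.v_mem _)
      · exact K.mem1_mul (S.mul_mem (S.mul_mem (S.pow_mem hqS _) (K.qn_mem hqS _)) (heS _))
          (K.v_mem _)
  | zero =>
    refine ⟨0, (K.Cone1 S).zero_mem, fun b _ => ?_⟩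
    simp [opE]
  | add U W _ _ hU hW =>
    obtain ⟨A, hA, hA'⟩ := hU
    obtain ⟨B, hB, hB'⟩ := hW
    refine ⟨A + B, (K.Cone1 S).add_mem hA hB, fun b hb => ?_⟩
    rw [Pi.add_apply, ← hA' b hb, ← hB' b hb]
    simp [opE, Finset.sum_add_distrib]
  | smul p U _ hU =>
    obtain ⟨A, hA, hA'⟩ := hU
    refine ⟨p • A, (K.Cone1 S).smul_mem p hA, fun b hb => ?_⟩
    have h1 : (p • A) b = (p : R) * A b := rfl
    rw [h1, ← hA' b hb]
    unfold opE
    rw [Finset.mul_sum]
    rfl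

include hqS heS in
/-- The window slide on level two. -/
theorem L2R [IsDomain R] (hq : K.q ≠ 1) (U : ℕ → ℕ → R) (hU : U ∈ K.Cone2 S) :
    ∃ W ∈ K.Cone2 S, ∀ b c, b < K.N → c < K.N → b ≠ c → K.opR U b c = W b c := by
  induction hU using Submodule.span_induction with
  | mem U hU =>
    rcases hU with ⟨s, rfl⟩ | ⟨d, s, hd, hds, rfl⟩
    · refine ⟨fun b c => K.Gv (s + 1) b c + K.q * K.qn s * K.FW (s + 1) b c,
        K.mem2_add (K.Gv_mem _) (K.mem2_mul (S.mul_mem hqS (K.qn_mem hqS _)) (K.FW_mem _)),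
        fun b c _ hc hbc => ?_⟩
      rw [K.R_Gv hq hc hbc, K.Fv_eq_FW _ hbc]
    · refine ⟨fun b c => K.BB d (s + 1) b c + K.q * K.qn (s - d) * K.FW (s + 1) b c +
        ∑ u ∈ range (s + 1),
          ((if d + 2 * u ≤ s then
              K.q ^ (s - u - d + 2) * K.qn (u + d - 1) * K.e (s - u + 1) * K.FW u b c else 0) +
            (if d + 2 * u + 1 ≤ s then
              K.q ^ (u + 2) * K.qn (s - u - d - 1) * K.e (u + 1) * K.FW (s - u) b c else 0)), ?_,
          fun b c hb hc hbc => ?_⟩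
      · refine K.mem2_add (K.mem2_add (K.BB_mem hd (by omega))
          (K.mem2_mul (S.mul_mem hqS (K.qn_mem hqS _)) (K.FW_mem _))) ?_
        refine K.mem2_sum _ fun u _ => ?_
        refine K.mem2_add (K.mem2_ite _ fun _ => ?_) (K.mem2_ite _ fun _ => ?_)
        · exact K.mem2_mul (S.mul_mem (S.mul_mem (S.pow_mem hqS _) (K.qn_mem hqS _)) (heS _))
            (K.FW_mem _)
        · exact K.mem2_mul (S.mul_mem (S.mul_mem (S.pow_mem hqS _) (K.qn_mem hqS _)) (heS _))
            (K.FW_mem _)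
      · rw [K.R_BB hq hd hds hb hc hbc]
        simp only [K.Fv_eq_FW _ hbc]
  | zero =>
    refine ⟨0, (K.Cone2 S).zero_mem, fun b c _ _ _ => ?_⟩
    simp [opR]
  | add U W _ _ hU hW =>
    obtain ⟨A, hA, hA'⟩ := hU
    obtain ⟨B, hB, hB'⟩ := hW
    refine ⟨A + B, (K.Cone2 S).add_mem hA hB, fun b c hb hc hbc => ?_⟩
    rw [Pi.add_apply, Pi.add_apply, ← hA' b c hb hc hbc, ← hB' b c hb hc hbc]
    simp [opR, Finset.sum_add_distrib, mul_add]
  | smul p U _ hU =>
    obtain ⟨A, hA, hA'⟩ := hU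
    refine ⟨p • A, (K.Cone2 S).smul_mem p hA, fun b c hb hc hbc => ?_⟩
    have h1 : (p • A) b c = (p : R) * A b c := rfl
    rw [h1, ← hA' b c hb hc hbc]
    unfold opR
    rw [Finset.mul_sum]
    refine Finset.sum_congr rfl fun a _ => ?_
    have h2 : (p • U) a b = (p : R) * U a b := rfl
    rw [h2]
    ring

variable (S) in
/-- The conditions on state vectors on levels zero to three. -/
def CC : ℕ → (List ℕ → R) → Prop
  | 0, u => u [] ∈ S
  | 1, u => ∃ V ∈ K.Cone1 S, ∀ b, b < K.N → u [b] = V b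
  | 2, u => ∃ W ∈ K.Cone2 S, ∀ a b, a < K.N → b < K.N → a ≠ b → u [b, a] = W a b
  | 3, u => ∃ W ∈ K.Cone2 S, ∀ a b c, a < K.N → b < K.N → c < K.N → a ≠ b → a ≠ c → b ≠ c →
      u [c, b, a] = qlt K.q a c * qlt K.q b c * K.x c * W a b
  | _ + 4, _ => False

theorem good0 : Good K.N 0 [] := ⟨rfl, by simp, by simp⟩

theorem good1 {b : ℕ} (hb : b < K.N) : Good K.N 1 [b] :=
  ⟨rfl, by simp, by simpa using hb⟩

theorem good2 {a b : ℕ} (ha : a < K.N) (hb : b < K.N) (hab : a ≠ b) : Good K.N 2 [b, a] := by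
  refine ⟨rfl, ?_, ?_⟩
  · simp [hab.symm]
  · intro c hc
    simp only [List.mem_cons, List.not_mem_nil, or_false] at hc
    rcases hc with rfl | rfl <;> assumption

theorem good3 {a b c : ℕ} (ha : a < K.N) (hb : b < K.N) (hc : c < K.N) (hab : a ≠ b) (hac : a ≠ c)
    (hbc : b ≠ c) : Good K.N 3 [c, b, a] := by
  refine ⟨rfl, ?_, ?_⟩
  · simp [hab.symm, hac.symm, hbc.symm]
  · intro d hd
    simp only [List.mem_cons, List.not_mem_nil, or_false] at hd
    rcases hd with rfl | rfl | rfl <;> assumption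

theorem pow_cnt1 (a c : ℕ) : K.q ^ cntLt c [a] = qlt K.q a c := by
  by_cases h : a < c
  · simp [cntLt, qlt, h, Nat.blt_eq]
  · simp [cntLt, qlt, h, Nat.blt_eq]

theorem pow_cnt2 (a b c : ℕ) : K.q ^ cntLt c [b, a] = qlt K.q a c * qlt K.q b c := by
  have h : cntLt c [b, a] = cntLt c [b] + cntLt c [a] := by
    simp [cntLt]
  rw [h, pow_add, pow_cnt1, pow_cnt1, mul_comm]

theorem filter_one (b : ℕ) :
    (range K.N).filter (fun c => c ∉ [b]) = (range K.N).erase b := by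
  ext a
  simp [and_comm]

theorem filter_two (b c : ℕ) :
    (range K.N).filter (fun a => a ∉ [c, b]) = ((range K.N).erase b).erase c := by
  ext a
  simp only [mem_filter, mem_range, List.mem_cons, List.not_mem_nil, or_false, not_or, mem_erase,
    ne_eq]
  tauto

include hqS heS in
/-- The family of conditions is stable. -/
theorem stable [IsDomain R] (hq : K.q ≠ 1) : GStable K.N 3 K.q K.x S (K.CC S) where
  congr := by
    intro k u w h1 h2
    match k, h1 with
    | 0, h1 =>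
      have : u [] = w [] := h2 [] K.good0
      show w [] ∈ S
      rw [← this]
      exact h1
    | 1, ⟨V, hV, hV'⟩ =>
      exact ⟨V, hV, fun b hb => by rw [← h2 _ (K.good1 hb)]; exact hV' b hb⟩
    | 2, ⟨W, hW, hW'⟩ =>
      exact ⟨W, hW, fun a b ha hb hab => by
        rw [← h2 _ (K.good2 ha hb hab)]; exact hW' a b ha hb hab⟩
    | 3, ⟨W, hW, hW'⟩ =>
      exact ⟨W, hW, fun a b c ha hb hc hab hac hbc => by
        rw [← h2 _ (K.good3 ha hb hc hab hac hbc)]; exact hW' a b c ha hb hc hab hac hbc⟩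
  start := S.one_mem
  stepN := by
    intro k hk u h1
    match k, hk, h1 with
    | 0, _, h1 =>
      refine ⟨fun y => u [] * K.v 0 y, K.mem1_mul h1 (K.v_mem 0), fun b _ => ?_⟩
      have h2 : K.v 0 b = K.x b := by
        unfold v
        rw [K.f_zero, mul_one]
      simp only [h2, cntLt, pow_zero, one_mul]
      ring
    | 1, _, ⟨V, hV, hV'⟩ =>
      obtain ⟨W, hW, hW'⟩ := K.L1N V hV
      refine ⟨W, hW, fun a b ha _ hab => ?_⟩
      rw [← hW' a b hab, ← hV' a ha]
      show K.q ^ cntLt b [a] * K.x b * u [a] = _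
      rw [K.pow_cnt1]
    | 2, _, ⟨W, hW, hW'⟩ =>
      refine ⟨W, hW, fun a b c ha hb _ hab _ _ => ?_⟩
      show K.q ^ cntLt c [b, a] * K.x c * u [b, a] = _
      rw [K.pow_cnt2, hW' a b ha hb hab]
  stepE := by
    intro k hk u h1
    match k, hk, h1 with
    | 0, _, ⟨V, hV, hV'⟩ =>
      show ∑ c ∈ (range K.N).filter (fun c => c ∉ ([] : List ℕ)), u ([] ++ [c]) ∈ S
      have h2 : ∑ c ∈ (range K.N).filter (fun c => c ∉ ([] : List ℕ)), u ([] ++ [c]) =
          ∑ c ∈ range K.N, V c := by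
        rw [Finset.filter_true_of_mem (by simp)]
        refine Finset.sum_congr rfl fun c hc => ?_
        exact hV' c (mem_range.mp hc)
      rw [h2]
      exact K.L1E hqS heS hq V hV
    | 1, _, ⟨W, hW, hW'⟩ =>
      obtain ⟨V, hV, hV'⟩ := K.L2E hqS heS hq W hW
      refine ⟨V, hV, fun b hb => ?_⟩
      rw [← hV' b hb]
      show ∑ c ∈ (range K.N).filter (fun c => c ∉ [b]), u ([b] ++ [c]) = _
      rw [K.filter_one]
      unfold opE
      refine Finset.sum_congr rfl fun a ha => ?_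
      obtain ⟨h3, h4⟩ := mem_erase.mp ha
      exact hW' a b (mem_range.mp h4) hb h3
    | 2, _, ⟨W, hW, hW'⟩ =>
      obtain ⟨A, hA, hA'⟩ := K.L2R hqS heS hq W hW
      refine ⟨A, hA, fun b c hb hc hbc => ?_⟩
      rw [← hA' b c hb hc hbc]
      show ∑ a ∈ (range K.N).filter (fun a => a ∉ [c, b]), u ([c, b] ++ [a]) = _
      rw [K.filter_two]
      unfold opR
      refine Finset.sum_congr rfl fun a ha => ?_
      obtain ⟨h3, h4⟩ := mem_erase.mp ha
      obtain ⟨h5, h6⟩ := mem_erase.mp h4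
      exact hW' a b c (mem_range.mp h6) hb hc h5 h3 hbc
  final := fun _ h => h

end Ctx

end

end Vale.Agent.Lib.P066.K3
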